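import Vale.Agent.P025.R2.H720.Tree

/-!
P025, A-END, tree side (helper361): the relation `Cont d W` between the `D`-vertices of the tree of
`T` and the valuation rings `W` of `N` over `kb` with a pole of `T`. Definitions and formal
properties.
-/

set_option linter.unusedSectionVars false

open TensorProduct P025H373 P025H544 P025H720

universe u v w

namespace P025H361

/-! ## abstract version -/

section Abs

variable (F : Type*) {A M R N : Type*} [Field F] [Field A] [Field M] [Algebra F A] [Algebra F M]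
  [CommRing R] [Field N]

/-- `R → A ⊗ M` -/
noncomputable def iA (M : Type*) [Field M] [Algebra F M] (ι : R →+* A) : R →+* A ⊗[F] M :=
  (algebraMap A (A ⊗[F] M)).comp ι

/-- `N → A ⊗ M` -/
noncomputable def iN (A : Type*) [Field A] [Algebra F A] (j : N →+* M) : N →+* A ⊗[F] M :=
  (Algebra.TensorProduct.includeRight (R := F) (A := A) (B := M)).toRingHom.comp j

variable {F}

theorem iA_apply (ι : R →+* A) (a : R) : iA F M ι a = ι a ⊗ₜ[F] 1 := rfl

theorem iN_apply (j : N →+* M) (x : N) : iN F A j x = 1 ⊗ₜ[F] j x := rfl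

/-- `R`, `W` are in `O`, and `T` is not in `O`, `φ : A ⊗ M → Ω`, `O ⊆ Ω` -/
structure CBy (ι : R →+* A) (j : N →+* M) (T : N) {Ω : Type*} [Field Ω] (φ : A ⊗[F] M →+* Ω)
    (O : ValuationSubring Ω) (W : ValuationSubring N) : Prop where
  mem : ∀ a : R, φ (iA F M ι a) ∈ O
  not_mem : φ (iN F A j T) ∉ O
  comap : O.comap (φ.comp (iN F A j)) = W

/-- `W` is a point (place) of the prime ideal `d` -/
def C0 (ι : R →+* A) (j : N →+* M) (T : N) (d : Pt F A M) (W : ValuationSubring N) : Prop :=
  ∃ O : ValuationSubring d.asIdeal.ResidueField,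
    CBy ι j T (algebraMap (A ⊗[F] M) d.asIdeal.ResidueField) O W

/-- `C0` from any homomorphism with kernel `d` -/
theorem C0_of_hom {ι : R →+* A} {j : N →+* M} {T : N} {Ω : Type*} [Field Ω]
    {φ : A ⊗[F] M →+* Ω} {d : Pt F A M} (hφ : ∀ z, φ z = 0 ↔ z ∈ d.asIdeal)
    {O : ValuationSubring Ω} {W : ValuationSubring N} (h : CBy ι j T φ O W) : C0 ι j T d W := by
  have h1 : d.asIdeal ≤ RingHom.ker φ := fun z hz => (hφ z).mpr hz
  have h2 : d.asIdeal.primeCompl ≤ (IsUnit.submonoid Ω).comap φ := by
    intro x hx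
    rw [Submonoid.mem_comap, IsUnit.mem_submonoid_iff, isUnit_iff_ne_zero]
    intro h0
    exact hx ((hφ x).mp h0)
  let ψ : d.asIdeal.ResidueField →+* Ω := Ideal.ResidueField.lift d.asIdeal φ h1 h2
  have hψ : ψ.comp (algebraMap (A ⊗[F] M) d.asIdeal.ResidueField) = φ :=
    RingHom.ext fun x => Ideal.ResidueField.lift_algebraMap d.asIdeal φ h1 h2 x
  refine ⟨O.comap ψ, ?_, ?_, ?_⟩
  · intro a
    rw [ValuationSubring.mem_comap, ← RingHom.comp_apply, hψ]
    exact h.mem a
  · rw [ValuationSubring.mem_comap, ← RingHom.comp_apply, hψ]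
    exact h.not_mem
  · rw [ValuationSubring.comap_comap, ← RingHom.comp_assoc, hψ]
    exact h.comap

theorem C0.not_mem {ι : R →+* A} {j : N →+* M} {T : N} {d : Pt F A M} {W : ValuationSubring N}
    (h : C0 ι j T d W) : T ∉ W := by
  obtain ⟨O, hO⟩ := h
  rw [← hO.comap, ValuationSubring.mem_comap, RingHom.comp_apply]
  exact hO.not_mem

/-- constants -/
theorem C0.mem {ι : R →+* A} {j : N →+* M} {T : N} {d : Pt F A M} {W : ValuationSubring N}
    (h : C0 ι j T d W) {x : N} {r : R} {f : F} (hr : ι r = algebraMap F A f)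
    (hx : j x = algebraMap F M f) : x ∈ W := by
  obtain ⟨O, hO⟩ := h
  rw [← hO.comap, ValuationSubring.mem_comap, RingHom.comp_apply]
  have h1 : iN F A j x = iA F M ι r := by
    rw [iN_apply, iA_apply, hr, hx, Algebra.algebraMap_eq_smul_one (R := F),
      ← TensorProduct.smul_tmul, ← Algebra.algebraMap_eq_smul_one]
  rw [h1]
  exact hO.mem r

end Abs

/-! ## the trees -/

section Defs

variable (C : Type u)
  [NontriviallyNormedField C] [IsUltrametricDist C] [CompleteSpace C] [IsAlgClosed C]

/-- `A2 → F2` -/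
noncomputable def a2 : A2 C →+* F2 C where
  toFun a := ⟨(a : F0 C), A2_le_F2 a.2⟩
  map_one' := rfl
  map_mul' _ _ := rfl
  map_zero' := rfl
  map_add' _ _ := rfl

variable (kb : Type v) (N : Type w)
  [Field kb] [IsAlgClosed kb] [Field N] [Algebra kb C] [Algebra kb N] [TrdegOne kb N]
  (T : N) [Fact (Transcendental kb T)]

variable {C kb N T}

/-- `W` is a point (place) of the `D`-vertex `d` -/
def Cont (d : DT C kb N T) (W : ValuationSubring N) : Prop :=
  C0 (F := RatFunc C) (A := F2 C) (M := NCT C kb N T) (a2 C) (algebraMap N (NCT C kb N T)) T d W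

theorem Cont.kb_mem {d : DT C kb N T} {W : ValuationSubring N} (h : Cont d W) (c : kb) :
    algebraMap kb N c ∈ W := by
  refine C0.mem h (r := algebraMap C (A2 C) (algebraMap kb C c))
    (f := algebraMap C (RatFunc C) (algebraMap kb C c)) rfl ?_
  rw [← IsScalarTower.algebraMap_apply kb N (NCT C kb N T),
    IsScalarTower.algebraMap_apply kb C (NCT C kb N T),
    IsScalarTower.algebraMap_apply C (RatFunc C) (NCT C kb N T)]

theorem Cont.T_not_mem {d : DT C kb N T} {W : ValuationSubring N} (h : Cont d W) : T ∉ W :=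
  C0.not_mem h

end Defs

end P025H361
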