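import Vale.Agent.P025.R2.H731.Sides
import Vale.Agent.P025.R2.H720.Tree

/-!
P025, A-GRAPH (helper361): `TopClosed` for `N_C` from the unramified Kummer property at finite
levels.
-/

open TensorProduct Vale.Agent.P019P P025H373 P025H492 P025H544 P025H731 P025H720

universe u v w

namespace P025H361

/-- every element of `A ⊗[F] M` comes from all intermediate fields containing a finite set -/
theorem exists_finset_tensor (F A : Type*) {M : Type*} [Field F] [Field A] [Field M] [Algebra F A]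
    [Algebra F M] (z : A ⊗[F] M) : ∃ s : Finset M, ∀ L : IntermediateField F M,
      (∀ x ∈ s, x ∈ L) → ∃ y : A ⊗[F] L, tL F A L.val y = z := by
  classical
  induction z using TensorProduct.induction_on with
  | zero => exact ⟨∅, fun L _ => ⟨0, map_zero _⟩⟩
  | tmul a x =>
    refine ⟨{x}, fun L hL => ⟨a ⊗ₜ[F] (⟨x, hL x (Finset.mem_singleton_self x)⟩ : L), ?_⟩⟩
    rw [tL_tmul]
    rfl
  | add x y hx hy =>
    obtain ⟨s, hs⟩ := hx
    obtain ⟨t, ht⟩ := hy
    refine ⟨s ∪ t, fun L hL => ?_⟩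
    obtain ⟨x', hx'⟩ := hs L fun z hz => hL z (Finset.mem_union_left _ hz)
    obtain ⟨y', hy'⟩ := ht L fun z hz => hL z (Finset.mem_union_right _ hz)
    exact ⟨x' + y', by rw [map_add, hx', hy']⟩

/-- an element of a finite level which is an `n`-th power on both sides has all orders divisible
by `n` -/
theorem dvd_ord_of_pow {C : Type u} {K : Type v} [NontriviallyNormedField C] [IsUltrametricDist C]
    [CompleteSpace C] [IsAlgClosed C] [Field K] [Algebra C K] [Algebra (RatFunc C) K]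
    [IsScalarTower C (RatFunc C) K] [FiniteDimensional (RatFunc C) K] [CFF C K] {n : ℕ}
    (hn : n ≠ 0) {x : K} (hx : x ≠ 0) {a : F1 C ⊗[RatFunc C] K} {b : F2 C ⊗[RatFunc C] K}
    (ha : a ^ n = (1 : F1 C) ⊗ₜ[RatFunc C] x) (hb : b ^ n = (1 : F2 C) ⊗ₜ[RatFunc C] x)
    (P : Plk C K) : (n : ℤ) ∣ ord P x := by
  by_cases hP : down (RatFunc C) P ∈ Inn C 1
  · refine (side1 C).dvd_of_pow P hP hx (Nat.pos_of_ne_zero hn) (z := a) ?_
    rw [ha, sub_self]
    exact Ideal.zero_mem _
  · refine (side2 C).dvd_of_pow P hP hx (Nat.pos_of_ne_zero hn) (z := b) ?_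
    rw [hb, sub_self]
    exact Ideal.zero_mem _

/-- `TopClosed`, model free -/
theorem topClosed_of {C : Type u} {M : Type v} [NontriviallyNormedField C] [IsUltrametricDist C]
    [CompleteSpace C] [IsAlgClosed C] [Field M] [Algebra C M] [Algebra (RatFunc C) M]
    [IsScalarTower C (RatFunc C) M] [Algebra.IsAlgebraic (RatFunc C) M] {n : ℕ} (hn : n ≠ 0)
    (hUC : ∀ (F : IntermediateField (RatFunc C) M) [FiniteDimensional (RatFunc C) F] [CFF C F]
      (f : F), f ≠ 0 → (∀ P : Plk C F, (n : ℤ) ∣ ord P f) → ∃ y : M, y ^ n = (f : M)) :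
    TopClosed (RatFunc C) (F1 C) (F2 C) M n := by
  classical
  rintro x hx ⟨a, ha⟩ ⟨b, hb⟩
  obtain ⟨s, hs⟩ := exists_finset_tensor (RatFunc C) (F1 C) a
  obtain ⟨t, ht⟩ := exists_finset_tensor (RatFunc C) (F2 C) b
  let S : Finset M := insert x (s ∪ t)
  let L : IntermediateField (RatFunc C) M := IntermediateField.adjoin (RatFunc C) (S : Set M)
  have hmem : ∀ z ∈ S, z ∈ L := fun z hz => IntermediateField.subset_adjoin _ _ hz
  have hfin : FiniteDimensional (RatFunc C) L :=
    IntermediateField.finiteDimensional_adjoin fun z _ => Algebra.IsIntegral.isIntegral z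
  have hcff : CFF C L := cff_of_finite (K := RatFunc C)
  obtain ⟨a', ha'⟩ := hs L fun z hz =>
    hmem z (Finset.mem_insert_of_mem (Finset.mem_union_left _ hz))
  obtain ⟨b', hb'⟩ := ht L fun z hz =>
    hmem z (Finset.mem_insert_of_mem (Finset.mem_union_right _ hz))
  let x' : L := ⟨x, hmem x (Finset.mem_insert_self _ _)⟩
  have hx' : x' ≠ 0 := fun h => hx (congrArg Subtype.val h)
  have ha2 : a' ^ n = (1 : F1 C) ⊗ₜ[RatFunc C] x' := by
    apply P025H720.tL_injective (F := RatFunc C) (A := F1 C) L.val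
    rw [map_pow, ha', ha, tL_tmul]
    rfl
  have hb2 : b' ^ n = (1 : F2 C) ⊗ₜ[RatFunc C] x' := by
    apply P025H720.tL_injective (F := RatFunc C) (A := F2 C) L.val
    rw [map_pow, hb', hb, tL_tmul]
    rfl
  obtain ⟨y, hy⟩ := hUC L x' hx' fun P => dvd_ord_of_pow hn hx' ha2 hb2 P
  exact ⟨y, hy⟩

/-- `TopClosed` for `N_C` -/
theorem topClosed (C : Type u) (kb : Type v) (N : Type w) [NontriviallyNormedField C]
    [IsUltrametricDist C] [CompleteSpace C] [IsAlgClosed C] [Field kb] [IsAlgClosed kb] [Field N]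
    [Algebra kb C] [Algebra kb N] [TrdegOne kb N] (T : N) [Fact (Transcendental kb T)] {n : ℕ}
    (hn : n ≠ 0)
    (hUC : ∀ (F : IntermediateField (RatFunc C) (NCT C kb N T)) [FiniteDimensional (RatFunc C) F]
      [CFF C F] (f : F), f ≠ 0 → (∀ P : Plk C F, (n : ℤ) ∣ ord P f) →
        ∃ y : NCT C kb N T, y ^ n = (f : NCT C kb N T)) :
    TopClosed (RatFunc C) (F1 C) (F2 C) (NCT C kb N T) n :=
  topClosed_of hn hUC

end P025H361
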