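import Vale.Agent.P025.R2.H361.TopCl
import Vale.Agent.P025.R2.H833.Uc2

/-!
P025, A-GRAPH (helper361): `TopClosed` and `GraphExact` for `N_C`, unconditionally for an `N` which
is closed under unramified Kummer extensions.
-/

open Vale.Agent.P019P P025H373 P025H492 P025H544 P025H505 P025H720

universe u

namespace P025H361

section NCT

variable {C kb N : Type u} [NontriviallyNormedField C] [IsUltrametricDist C] [CompleteSpace C]
  [IsAlgClosed C] [Field kb] [IsAlgClosed kb] [CharZero kb] [Field N] [Algebra kb C]
  [Algebra kb N] [TrdegOne kb N]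

/-- `TopClosed` for `N_C` -/
theorem topClosed_NCT (hN : P025H833.KumMax kb N) (T : N) [Fact (Transcendental kb T)] {n : ℕ}
    (hn : n ≠ 0) : TopClosed (RatFunc C) (F1 C) (F2 C) (NCT C kb N T) n :=
  topClosed C kb N T hn (P025H833.uc_NCT hN T hn)

/-- (A0.1), (A2.3): `GraphExact` for `N_C` -/
theorem graphExact_of_kumMax [CharZero C] (hN : P025H833.KumMax kb N) (T : N)
    [Fact (Transcendental kb T)] (n : ℕ) [NeZero n] :
    GraphExact n (toV C kb N T) (toD C kb N T) :=
  graphExact_NCT C kb N T n (topClosed_NCT hN T (NeZero.ne n))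

end NCT

end P025H361
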